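import Vale.Agent.H40.KTV.GDefs
import Vale.Agent.H12.PairFibre

/-!
Basic lemmas for the graph model: the fibre relations are equivalence relations,
monotone in the set of pairs; averages over fibre relations of disjoint sets of
pairs commute (paste lemma); basic facts on the switch involution of a block.
-/

namespace Vale.Agent.H40.KTV

open Finset SimpleGraph
open scoped Classical
open Vale.Agent.H90 (dot avgRel)

variable {V : Type} [Fintype V]

/-! ### Block definitions for the local inequality -/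

/-- indicator of the edge `ab` of `G` -/
noncomputable def bl (G : SimpleGraph V) (a b : V) : ℕ := if G.Adj a b then 1 else 0

/-- number of edges of `G` in the block `{u, v} x {w, z}` -/
noncomputable def sig (u v w z : V) (G : SimpleGraph V) : ℕ :=
  bl G u w + bl G u z + bl G v w + bl G v z

/-- `G` and `H` agree on the four pairs of the block `{u, v} x {w, z}` -/
def BlockEq (u v w z : V) (G H : SimpleGraph V) : Prop :=
  (G.Adj u w ↔ H.Adj u w) ∧ (G.Adj u z ↔ H.Adj u z) ∧ (G.Adj v w ↔ H.Adj v w) ∧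
    (G.Adj v z ↔ H.Adj v z)

/-- Refined pair-fibre relation of `{u, v}` relative to the block `{u, v} x {w, z}`:
on the graphs with exactly two block edges the block is frozen. -/
def RPt (u v w z : V) (G H : SimpleGraph V) : Prop :=
  RP u v G H ∧ (sig u v w z G = 2 → BlockEq u v w z G H)

/-! ### Degrees and the fibre relations -/

theorem degree_eq_card_filter (G : SimpleGraph V) (v : V) :
    G.degree v = (univ.filter (fun w => G.Adj v w)).card := by
  rw [← SimpleGraph.card_neighborFinset_eq_degree, SimpleGraph.neighborFinset_eq_filter]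

theorem sd_refl (G : SimpleGraph V) : SD G G := fun _ => rfl

theorem sd_symm {G H : SimpleGraph V} (h : SD G H) : SD H G := fun v => (h v).symm

theorem sd_trans {G H K : SimpleGraph V} (h1 : SD G H) (h2 : SD H K) : SD G K :=
  fun v => (h1 v).trans (h2 v)

theorem sd_equiv : Equivalence (SD (V := V)) := ⟨sd_refl, sd_symm, sd_trans⟩

theorem rel_refl (S : Set (Sym2 V)) (G : SimpleGraph V) : Rel S G G :=
  ⟨sd_refl G, fun _ _ => Iff.rfl⟩

theorem rel_symm {S : Set (Sym2 V)} {G H : SimpleGraph V} (h : Rel S G H) : Rel S H G :=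
  ⟨sd_symm h.1, fun e he => (h.2 e he).symm⟩

theorem rel_trans {S : Set (Sym2 V)} {G H K : SimpleGraph V} (h1 : Rel S G H) (h2 : Rel S H K) :
    Rel S G K :=
  ⟨sd_trans h1.1 h2.1, fun e he => (h1.2 e he).trans (h2.2 e he)⟩

theorem rel_equiv (S : Set (Sym2 V)) : Equivalence (Rel S) :=
  ⟨rel_refl S, rel_symm, rel_trans⟩

theorem rel_mono {S S' : Set (Sym2 V)} (h : S ⊆ S') {G H : SimpleGraph V} (hr : Rel S G H) :
    Rel S' G H :=
  ⟨hr.1, fun e he => hr.2 e (fun h' => he (h h'))⟩

theorem rel_adj {S : Set (Sym2 V)} {G H : SimpleGraph V} (h : Rel S G H) {a b : V}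
    (hab : s(a, b) ∉ S) : G.Adj a b ↔ H.Adj a b := by
  have := h.2 s(a, b) hab
  simpa [SimpleGraph.mem_edgeSet] using this

theorem rel_of_adj {S : Set (Sym2 V)} {G H : SimpleGraph V} (hd : SD G H)
    (h : ∀ a b, s(a, b) ∉ S → (G.Adj a b ↔ H.Adj a b)) : Rel S G H := by
  refine ⟨hd, fun e he => ?_⟩
  induction e using Sym2.ind with
  | _ a b =>
    simp only [SimpleGraph.mem_edgeSet]
    exact h a b he

theorem mem_EP {u v a b : V} : s(a, b) ∈ EP u v ↔ (a = u ∨ b = u) ∨ (a = v ∨ b = v) := by
  unfold EP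
  simp only [Set.mem_ofPred_eq, Sym2.mem_iff]
  constructor
  · rintro (h | h)
    · rcases h with h | h
      · exact Or.inl (Or.inl h.symm)
      · exact Or.inl (Or.inr h.symm)
    · rcases h with h | h
      · exact Or.inr (Or.inl h.symm)
      · exact Or.inr (Or.inr h.symm)
  · rintro (h | h)
    · rcases h with h | h
      · exact Or.inl (Or.inl h.symm)
      · exact Or.inl (Or.inr h.symm)
    · rcases h with h | h
      · exact Or.inr (Or.inl h.symm)
      · exact Or.inr (Or.inr h.symm)

theorem EP_comm (u v : V) : EP u v = EP v u := by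
  unfold EP
  ext e
  simp only [Set.mem_ofPred_eq]
  tauto

theorem rp_equiv (u v : V) : Equivalence (RP u v) := rel_equiv (EP u v)

theorem rp_comm (u v : V) : RP u v = RP v u := by
  unfold RP
  rw [EP_comm]

theorem qp_comm (u v : V) (f : SimpleGraph V → ℝ) : QP u v f = QP v u f := by
  unfold QP
  rw [rp_comm]

/-- the pair-fibre relation in adjacency form (helper12's `RelV`) -/
theorem rp_iff_relV (u v : V) (G H : SimpleGraph V) :
    RP u v G H ↔ Vale.Agent.H12.Switch.RelV u v G H := by
  unfold RP Vale.Agent.H12.Switch.RelV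
  constructor
  · intro h
    refine ⟨h.1, fun a b hau hav hbu hbv => ?_⟩
    apply rel_adj h
    rw [mem_EP]
    tauto
  · intro h
    apply rel_of_adj h.1
    intro a b hab
    rw [mem_EP] at hab
    apply h.2 a b <;> tauto

/-! ### Pasting and commutation for disjoint sets of pairs -/

/-- the graph that is `G₁` on the pairs in `S` and `G₂` elsewhere -/
def paste (S : Set (Sym2 V)) (G₁ G₂ : SimpleGraph V) : SimpleGraph V where
  Adj a b := if s(a, b) ∈ S then G₁.Adj a b else G₂.Adj a b
  symm := ⟨by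
    intro a b h
    rw [Sym2.eq_swap]
    by_cases hS : s(a, b) ∈ S
    · rw [if_pos hS] at h ⊢; exact h.symm
    · rw [if_neg hS] at h ⊢; exact h.symm⟩
  loopless := ⟨by
    intro a h
    by_cases hS : s(a, a) ∈ S
    · rw [if_pos hS] at h; exact G₁.loopless.irrefl a h
    · rw [if_neg hS] at h; exact G₂.loopless.irrefl a h⟩

theorem paste_adj (S : Set (Sym2 V)) (G₁ G₂ : SimpleGraph V) (a b : V) :
    (paste S G₁ G₂).Adj a b ↔ if s(a, b) ∈ S then G₁.Adj a b else G₂.Adj a b := Iff.rfl

/-- number of neighbours of `v` along pairs in `S` -/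
noncomputable def degIn (S : Set (Sym2 V)) (G : SimpleGraph V) (v : V) : ℕ :=
  (univ.filter (fun w => s(v, w) ∈ S ∧ G.Adj v w)).card

/-- number of neighbours of `v` along pairs outside `S` -/
noncomputable def degOut (S : Set (Sym2 V)) (G : SimpleGraph V) (v : V) : ℕ :=
  (univ.filter (fun w => s(v, w) ∉ S ∧ G.Adj v w)).card

theorem degree_split (S : Set (Sym2 V)) (G : SimpleGraph V) (v : V) :
    G.degree v = degIn S G v + degOut S G v := by
  rw [degree_eq_card_filter]
  unfold degIn degOut
  rw [← Finset.card_union_of_disjoint]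
  · congr 1
    ext w
    simp only [mem_filter, mem_univ, true_and, mem_union]
    tauto
  · rw [Finset.disjoint_left]
    intro w h1 h2
    simp only [mem_filter, mem_univ, true_and] at h1 h2
    exact h2.1 h1.1

theorem degOut_congr {S : Set (Sym2 V)} {G H : SimpleGraph V}
    (h : ∀ a b, s(a, b) ∉ S → (G.Adj a b ↔ H.Adj a b)) (v : V) :
    degOut S G v = degOut S H v := by
  unfold degOut
  congr 1
  ext w
  simp only [mem_filter, mem_univ, true_and]
  constructor
  · rintro ⟨h1, h2⟩; exact ⟨h1, (h v w h1).1 h2⟩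
  · rintro ⟨h1, h2⟩; exact ⟨h1, (h v w h1).2 h2⟩

theorem degIn_congr {S : Set (Sym2 V)} {G H : SimpleGraph V}
    (h : ∀ a b, s(a, b) ∈ S → (G.Adj a b ↔ H.Adj a b)) (v : V) :
    degIn S G v = degIn S H v := by
  unfold degIn
  congr 1
  ext w
  simp only [mem_filter, mem_univ, true_and]
  constructor
  · rintro ⟨h1, h2⟩; exact ⟨h1, (h v w h1).1 h2⟩
  · rintro ⟨h1, h2⟩; exact ⟨h1, (h v w h1).2 h2⟩

/-- if `G`, `H` are in the same `S`-fibre, their degrees along `S` agree -/
theorem degIn_of_rel {S : Set (Sym2 V)} {G H : SimpleGraph V} (h : Rel S G H) (v : V) :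
    degIn S G v = degIn S H v := by
  have h1 := degree_split S G v
  have h2 := degree_split S H v
  have h3 := degOut_congr (fun a b hab => rel_adj h hab) v
  have h4 := h.1 v
  omega

theorem paste_degree (S : Set (Sym2 V)) (G₁ G₂ : SimpleGraph V) (v : V) :
    (paste S G₁ G₂).degree v = degIn S G₁ v + degOut S G₂ v := by
  rw [degree_split S (paste S G₁ G₂) v]
  congr 1
  · apply degIn_congr
    intro a b hab
    rw [paste_adj, if_pos hab]
  · apply degOut_congr
    intro a b hab
    rw [paste_adj, if_neg hab]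

/-- **Paste lemma.** If `G₁` is in the `S₁`-fibre of `G` and `G₂` in the `S₂`-fibre of `G`,
with `S₁`, `S₂` disjoint, then pasting `G₁` on `S₁` into `G₂` completes the square. -/
theorem paste_square {S₁ S₂ : Set (Sym2 V)} (hd : Disjoint S₁ S₂) {G₁ G G₂ : SimpleGraph V}
    (h1 : Rel S₁ G₁ G) (h2 : Rel S₂ G G₂) :
    Rel S₂ G₁ (paste S₁ G₁ G₂) ∧ Rel S₁ (paste S₁ G₁ G₂) G₂ := by
  have hdis : ∀ e, e ∈ S₁ → e ∉ S₂ := fun e he1 he2 => Set.disjoint_left.1 hd he1 he2
  have hdeg : SD (paste S₁ G₁ G₂) G₂ := by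
    intro v
    rw [paste_degree, degree_split S₁ G₂ v]
    congr 1
    rw [degIn_of_rel h1 v]
    apply degIn_congr
    intro a b hab
    exact rel_adj h2 (hdis _ hab)
  constructor
  · apply rel_of_adj
    · intro v
      rw [hdeg v, ← h2.1 v, h1.1 v]
    · intro a b hab
      rw [paste_adj]
      by_cases hS : s(a, b) ∈ S₁
      · rw [if_pos hS]
      · rw [if_neg hS, rel_adj h1 hS, rel_adj h2 hab]
  · apply rel_of_adj hdeg
    intro a b hab
    rw [paste_adj, if_neg hab]

theorem rel_inter_eq {S₁ S₂ : Set (Sym2 V)} (hd : Disjoint S₁ S₂) {G H : SimpleGraph V}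
    (h1 : Rel S₁ G H) (h2 : Rel S₂ G H) : G = H := by
  ext a b
  by_cases hS : s(a, b) ∈ S₁
  · exact rel_adj h2 (fun h => Set.disjoint_left.1 hd hS h)
  · exact rel_adj h1 hS

/-- averages over the fibres of two disjoint sets of pairs commute -/
theorem avgRel_comm_disjoint {S₁ S₂ : Set (Sym2 V)} (hd : Disjoint S₁ S₂)
    (f : SimpleGraph V → ℝ) :
    avgRel (Rel S₁) (avgRel (Rel S₂) f) = avgRel (Rel S₂) (avgRel (Rel S₁) f) := by
  apply Vale.Agent.H90.avgRel_comm (rel_equiv S₁) (rel_equiv S₂)
  · intro x y z hxy hyz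
    exact ⟨paste S₁ x z, (paste_square hd hxy hyz).1, (paste_square hd hxy hyz).2⟩
  · intro x y h1 h2
    exact rel_inter_eq hd h1 h2

end Vale.Agent.H40.KTV
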