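import Vale.Agent.H40.KTV.GBasic

/-!
The switch involution of a block and the block margins: adjacency of `T G`,
involution, invariance of the pair fibres, symmetries in the arguments, and the
row / column sums of the block along the pair-fibre relations.
-/

namespace Vale.Agent.H40.KTV

open Finset SimpleGraph
open scoped Classical
open Vale.Agent.H90 (dot avgRel)
open Vale.Agent.H12.Switch (swap swap_adj swap_degree)

variable {V : Type} [Fintype V]

/-- the pair `e` is one of the four pairs of the block `{u, v} x {w, z}` -/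
def InB (u v w z : V) (e : Sym2 V) : Prop :=
  e = s(u, w) ∨ e = s(u, z) ∨ e = s(v, w) ∨ e = s(v, z)

theorem inB_iff {u v w z a b : V} :
    InB u v w z s(a, b) ↔
      (a = u ∧ b = w) ∨ (a = w ∧ b = u) ∨ (a = u ∧ b = z) ∨ (a = z ∧ b = u) ∨
        (a = v ∧ b = w) ∨ (a = w ∧ b = v) ∨ (a = v ∧ b = z) ∨ (a = z ∧ b = v) := by
  unfold InB
  simp only [Sym2.eq_iff]
  tauto

/-- under `Dist4`, the block pairs are exactly the pairs meeting both `{u,v}` and `{w,z}` -/
theorem inB_iff_mem {u v w z : V} (h : Dist4 u v w z) (a b : V) :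
    InB u v w z s(a, b) ↔ s(a, b) ∈ EP u v ∧ s(a, b) ∈ EP w z := by
  obtain ⟨huv, huw, huz, hvw, hvz, hwz⟩ := h
  rw [inB_iff, mem_EP, mem_EP]
  constructor
  · rintro (⟨rfl, rfl⟩ | ⟨rfl, rfl⟩ | ⟨rfl, rfl⟩ | ⟨rfl, rfl⟩ | ⟨rfl, rfl⟩ | ⟨rfl, rfl⟩ |
      ⟨rfl, rfl⟩ | ⟨rfl, rfl⟩) <;> simp
  · rintro ⟨(h1 | h1) | (h1 | h1), (h2 | h2) | (h2 | h2)⟩
    all_goals subst h1
    all_goals subst h2
    all_goals first
      | exact absurd rfl huv | exact absurd rfl huw | exact absurd rfl huz
      | exact absurd rfl hvw | exact absurd rfl hvz | exact absurd rfl hwz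
      | exact absurd rfl (Ne.symm huv) | exact absurd rfl (Ne.symm huw)
      | exact absurd rfl (Ne.symm huz) | exact absurd rfl (Ne.symm hvw)
      | exact absurd rfl (Ne.symm hvz) | exact absurd rfl (Ne.symm hwz)
      | tauto

theorem perm_comm_uv (u v w z : V) (G : SimpleGraph V) : Perm v u w z G ↔ Perm u v w z G := by
  unfold Perm; tauto

theorem perm_comm_wz (u v w z : V) (G : SimpleGraph V) : Perm u v z w G ↔ Perm u v w z G := by
  unfold Perm; tauto

theorem perm_comm_pq (u v w z : V) (G : SimpleGraph V) : Perm w z u v G ↔ Perm u v w z G := by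
  unfold Perm
  simp only [G.adj_comm w u, G.adj_comm z v, G.adj_comm w v, G.adj_comm z u]
  tauto

theorem adj_congr_sym2 (G : SimpleGraph V) {x y a b : V} (h : s(x, y) = s(a, b)) :
    G.Adj x y ↔ G.Adj a b := by
  rw [← SimpleGraph.mem_edgeSet, h, SimpleGraph.mem_edgeSet]

/-- adjacency after a switch, in block form -/
theorem swap_block (G : SimpleGraph V) (a b c e : V) (hab : G.Adj a b) (hce : G.Adj c e)
    (hac : ¬ G.Adj a c) (hbe : ¬ G.Adj b e) (hac' : a ≠ c) (hbe' : b ≠ e) (x y : V) :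
    (swap G a b c e).Adj x y ↔
      (if s(x, y) = s(a, b) ∨ s(x, y) = s(c, e) ∨ s(x, y) = s(a, c) ∨ s(x, y) = s(b, e)
        then ¬ G.Adj x y else G.Adj x y) := by
  have hrev := Vale.Agent.H12.Switch.swap_rev_applicable G a b c e hab hce hac hbe hac' hbe'
  by_cases hB : s(x, y) = s(a, b) ∨ s(x, y) = s(c, e) ∨ s(x, y) = s(a, c) ∨ s(x, y) = s(b, e)
  · rw [if_pos hB]
    rcases hB with e1 | e1 | e1 | e1
    · rw [adj_congr_sym2 _ e1, adj_congr_sym2 G e1]
      exact ⟨fun h => absurd h hrev.2.2.1, fun h => absurd hab h⟩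
    · rw [adj_congr_sym2 _ e1, adj_congr_sym2 G e1]
      exact ⟨fun h => absurd h hrev.2.2.2, fun h => absurd hce h⟩
    · rw [adj_congr_sym2 _ e1, adj_congr_sym2 G e1]
      exact ⟨fun _ => hac, fun _ => hrev.1⟩
    · rw [adj_congr_sym2 _ e1, adj_congr_sym2 G e1]
      exact ⟨fun _ => hbe, fun _ => hrev.2.1⟩
  · rw [if_neg hB]
    apply Vale.Agent.H12.Switch.swap_adj_other
    tauto

/-- adjacency in `T G`: on the block pairs of a permutation pattern it is negated -/
theorem T_adj {u v w z : V} (h : Dist4 u v w z) (G : SimpleGraph V) (a b : V) :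
    (T u v w z G).Adj a b ↔
      (if Perm u v w z G ∧ InB u v w z s(a, b) then ¬ G.Adj a b else G.Adj a b) := by
  obtain ⟨huv, huw, huz, hvw, hvz, hwz⟩ := h
  have e1 : s(z, v) = s(v, z) := Sym2.eq_swap
  have e2 : s(w, v) = s(v, w) := Sym2.eq_swap
  unfold T
  by_cases c1 : G.Adj u w ∧ G.Adj v z ∧ ¬ G.Adj u z ∧ ¬ G.Adj v w
  · rw [if_pos c1]
    have hP : Perm u v w z G := Or.inl c1
    obtain ⟨h1, h2, h3, h4⟩ := c1
    rw [swap_block G u w z v h1 h2.symm h3 (fun h' => h4 h'.symm) huz (Ne.symm hvw)]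
    have hiff : (s(a, b) = s(u, w) ∨ s(a, b) = s(z, v) ∨ s(a, b) = s(u, z) ∨ s(a, b) = s(w, v))
        ↔ (Perm u v w z G ∧ InB u v w z s(a, b)) := by
      unfold InB
      rw [e1, e2]
      tauto
    by_cases hB : Perm u v w z G ∧ InB u v w z s(a, b)
    · rw [if_pos hB, if_pos (hiff.2 hB)]
    · rw [if_neg hB, if_neg (fun h' => hB (hiff.1 h'))]
  · rw [if_neg c1]
    by_cases c2 : G.Adj u z ∧ G.Adj v w ∧ ¬ G.Adj u w ∧ ¬ G.Adj v z
    · rw [if_pos c2]
      have hP : Perm u v w z G := Or.inr c2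
      obtain ⟨h1, h2, h3, h4⟩ := c2
      rw [swap_block G u z w v h1 h2.symm h3 (fun h' => h4 h'.symm) huw (Ne.symm hvz)]
      have hiff : (s(a, b) = s(u, z) ∨ s(a, b) = s(w, v) ∨ s(a, b) = s(u, w) ∨ s(a, b) = s(z, v))
          ↔ (Perm u v w z G ∧ InB u v w z s(a, b)) := by
        unfold InB
        rw [e1, e2]
        tauto
      by_cases hB : Perm u v w z G ∧ InB u v w z s(a, b)
      · rw [if_pos hB, if_pos (hiff.2 hB)]
      · rw [if_neg hB, if_neg (fun h' => hB (hiff.1 h'))]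
    · rw [if_neg c2]
      have hP : ¬ Perm u v w z G := by
        rintro (hh | hh)
        · exact c1 hh
        · exact c2 hh
      rw [if_neg (fun h' => hP h'.1)]

theorem T_adj_off {u v w z : V} (h : Dist4 u v w z) (G : SimpleGraph V) {a b : V}
    (hB : ¬ InB u v w z s(a, b)) : (T u v w z G).Adj a b ↔ G.Adj a b := by
  rw [T_adj h, if_neg (fun h' => hB h'.2)]

theorem T_adj_in {u v w z : V} (h : Dist4 u v w z) (G : SimpleGraph V) (hP : Perm u v w z G)
    {a b : V} (hB : InB u v w z s(a, b)) : (T u v w z G).Adj a b ↔ ¬ G.Adj a b := by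
  rw [T_adj h, if_pos ⟨hP, hB⟩]

theorem T_eq_self {u v w z : V} (G : SimpleGraph V) (hP : ¬ Perm u v w z G) :
    T u v w z G = G := by
  unfold T
  rw [if_neg (fun h' => hP (Or.inl h')), if_neg (fun h' => hP (Or.inr h'))]

/-- on the four block pairs `T G` negates a permutation pattern -/
theorem T_block {u v w z : V} (h : Dist4 u v w z) (G : SimpleGraph V) (hP : Perm u v w z G) :
    ((T u v w z G).Adj u w ↔ ¬ G.Adj u w) ∧ ((T u v w z G).Adj u z ↔ ¬ G.Adj u z) ∧
      ((T u v w z G).Adj v w ↔ ¬ G.Adj v w) ∧ ((T u v w z G).Adj v z ↔ ¬ G.Adj v z) :=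
  ⟨T_adj_in h G hP (Or.inl rfl), T_adj_in h G hP (Or.inr (Or.inl rfl)),
    T_adj_in h G hP (Or.inr (Or.inr (Or.inl rfl))), T_adj_in h G hP (Or.inr (Or.inr (Or.inr rfl)))⟩

theorem T_perm {u v w z : V} (h : Dist4 u v w z) (G : SimpleGraph V) :
    Perm u v w z (T u v w z G) ↔ Perm u v w z G := by
  by_cases hP : Perm u v w z G
  · obtain ⟨b1, b2, b3, b4⟩ := T_block h G hP
    have hP' := hP
    unfold Perm at hP' ⊢
    rw [b1, b2, b3, b4]
    tauto
  · rw [T_eq_self G hP]

theorem T_invol {u v w z : V} (h : Dist4 u v w z) (G : SimpleGraph V) :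
    T u v w z (T u v w z G) = G := by
  by_cases hP : Perm u v w z G
  · ext a b
    rw [T_adj h (T u v w z G), T_adj h G]
    by_cases hB : InB u v w z s(a, b)
    · rw [if_pos ⟨(T_perm h G).2 hP, hB⟩, if_pos ⟨hP, hB⟩, not_not]
    · rw [if_neg (fun h' => hB h'.2), if_neg (fun h' => hB h'.2)]
  · rw [T_eq_self G hP, T_eq_self G hP]

theorem T_ne_iff {u v w z : V} (h : Dist4 u v w z) (G : SimpleGraph V) :
    T u v w z G ≠ G ↔ Perm u v w z G := by
  constructor
  · intro hne
    by_contra hP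
    exact hne (T_eq_self G hP)
  · intro hP heq
    have b1 := (T_block h G hP).1
    rw [heq] at b1
    by_cases hA : G.Adj u w
    · exact (b1.1 hA) hA
    · exact hA (b1.2 hA)

theorem T_sd {u v w z : V} (h : Dist4 u v w z) (G : SimpleGraph V) : SD G (T u v w z G) := by
  obtain ⟨huv, huw, huz, hvw, hvz, hwz⟩ := h
  intro x
  unfold T
  by_cases c1 : G.Adj u w ∧ G.Adj v z ∧ ¬ G.Adj u z ∧ ¬ G.Adj v w
  · rw [if_pos c1]
    obtain ⟨h1, h2, h3, h4⟩ := c1
    exact (swap_degree G u w z v h1 h2.symm h3 (fun h' => h4 h'.symm) huz (Ne.symm hvw) x).symm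
  · rw [if_neg c1]
    by_cases c2 : G.Adj u z ∧ G.Adj v w ∧ ¬ G.Adj u w ∧ ¬ G.Adj v z
    · rw [if_pos c2]
      obtain ⟨h1, h2, h3, h4⟩ := c2
      exact (swap_degree G u z w v h1 h2.symm h3 (fun h' => h4 h'.symm) huw (Ne.symm hvz) x).symm
    · rw [if_neg c2]

theorem T_rp {u v w z : V} (h : Dist4 u v w z) (G : SimpleGraph V) :
    RP u v G (T u v w z G) := by
  apply rel_of_adj (T_sd h G)
  intro a b hab
  rw [T_adj_off h G]
  intro hB
  exact hab ((inB_iff_mem h a b).1 hB).1

theorem T_rq {u v w z : V} (h : Dist4 u v w z) (G : SimpleGraph V) :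
    RP w z G (T u v w z G) := by
  apply rel_of_adj (T_sd h G)
  intro a b hab
  rw [T_adj_off h G]
  intro hB
  exact hab ((inB_iff_mem h a b).1 hB).2

theorem dist4_comm_uv {u v w z : V} (h : Dist4 u v w z) : Dist4 v u w z := by
  obtain ⟨huv, huw, huz, hvw, hvz, hwz⟩ := h
  exact ⟨Ne.symm huv, hvw, hvz, huw, huz, hwz⟩

theorem dist4_comm_wz {u v w z : V} (h : Dist4 u v w z) : Dist4 u v z w := by
  obtain ⟨huv, huw, huz, hvw, hvz, hwz⟩ := h
  exact ⟨huv, huz, huw, hvz, hvw, Ne.symm hwz⟩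

theorem dist4_comm_pq {u v w z : V} (h : Dist4 u v w z) : Dist4 w z u v := by
  obtain ⟨huv, huw, huz, hvw, hvz, hwz⟩ := h
  exact ⟨hwz, Ne.symm huw, Ne.symm hvw, Ne.symm huz, Ne.symm hvz, huv⟩

theorem inB_comm_uv (u v w z : V) (e : Sym2 V) : InB v u w z e ↔ InB u v w z e := by
  unfold InB; tauto

theorem inB_comm_wz (u v w z : V) (e : Sym2 V) : InB u v z w e ↔ InB u v w z e := by
  unfold InB; tauto

theorem inB_comm_pq (u v w z : V) (e : Sym2 V) : InB w z u v e ↔ InB u v w z e := by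
  unfold InB
  rw [Sym2.eq_swap (a := w) (b := u), Sym2.eq_swap (a := w) (b := v),
    Sym2.eq_swap (a := z) (b := u), Sym2.eq_swap (a := z) (b := v)]
  tauto

theorem T_comm_uv {u v w z : V} (h : Dist4 u v w z) : T v u w z = T u v w z := by
  funext G
  ext a b
  rw [T_adj (dist4_comm_uv h), T_adj h, perm_comm_uv, inB_comm_uv]

theorem T_comm_wz {u v w z : V} (h : Dist4 u v w z) : T u v z w = T u v w z := by
  funext G
  ext a b
  rw [T_adj (dist4_comm_wz h), T_adj h, perm_comm_wz, inB_comm_wz]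

theorem T_comm_pq {u v w z : V} (h : Dist4 u v w z) : T w z u v = T u v w z := by
  funext G
  ext a b
  rw [T_adj (dist4_comm_pq h), T_adj h, perm_comm_pq, inB_comm_pq]

/-! ### Block margins along the pair-fibre relations -/

theorem bl_comm (G : SimpleGraph V) (a b : V) : bl G a b = bl G b a := by
  unfold bl
  rw [G.adj_comm]

/-- if the `S`-pairs at `t` are exactly `tp`, `tq`, the `S`-degree of `t` counts these two -/
theorem degIn_pair (S : Set (Sym2 V)) (G : SimpleGraph V) (t p q : V) (hpq : p ≠ q)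
    (hS : ∀ x, s(t, x) ∈ S ↔ x = p ∨ x = q) : degIn S G t = bl G t p + bl G t q := by
  unfold degIn bl
  have e : univ.filter (fun x => s(t, x) ∈ S ∧ G.Adj t x)
      = ({p, q} : Finset V).filter (fun x => G.Adj t x) := by
    ext x
    simp only [mem_filter, mem_univ, true_and, mem_insert, mem_singleton]
    rw [hS x]
  rw [e, Finset.filter_insert, Finset.filter_singleton]
  by_cases h1 : G.Adj t p <;> by_cases h2 : G.Adj t q <;> simp [h1, h2, hpq]

theorem col_w {u v w z : V} (h : Dist4 u v w z) {G H : SimpleGraph V} (hr : RP u v G H) :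
    bl G u w + bl G v w = bl H u w + bl H v w := by
  obtain ⟨huv, huw, huz, hvw, hvz, hwz⟩ := h
  have key : ∀ K : SimpleGraph V, degIn (EP u v) K w = bl K u w + bl K v w := by
    intro K
    rw [degIn_pair (EP u v) K w u v huv, bl_comm K w u, bl_comm K w v]
    intro x
    rw [mem_EP]
    constructor
    · rintro ((h' | h') | (h' | h'))
      · exact absurd h'.symm huw
      · exact Or.inl h'
      · exact absurd h'.symm hvw
      · exact Or.inr h'
    · rintro (h' | h')
      · exact Or.inl (Or.inr h')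
      · exact Or.inr (Or.inr h')
  rw [← key G, ← key H]
  exact degIn_of_rel hr w

theorem col_z {u v w z : V} (h : Dist4 u v w z) {G H : SimpleGraph V} (hr : RP u v G H) :
    bl G u z + bl G v z = bl H u z + bl H v z :=
  col_w (dist4_comm_wz h) hr

theorem row_u {u v w z : V} (h : Dist4 u v w z) {G H : SimpleGraph V} (hr : RP w z G H) :
    bl G u w + bl G u z = bl H u w + bl H u z := by
  have := col_w (dist4_comm_pq h) hr
  rw [bl_comm G w u, bl_comm G z u, bl_comm H w u, bl_comm H z u] at this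
  exact this

theorem row_v {u v w z : V} (h : Dist4 u v w z) {G H : SimpleGraph V} (hr : RP w z G H) :
    bl G v w + bl G v z = bl H v w + bl H v z := by
  have := col_z (dist4_comm_pq h) hr
  rw [bl_comm G w v, bl_comm G z v, bl_comm H w v, bl_comm H z v] at this
  exact this

theorem sig_rp {u v w z : V} (h : Dist4 u v w z) {G H : SimpleGraph V} (hr : RP u v G H) :
    sig u v w z G = sig u v w z H := by
  have h1 := col_w h hr
  have h2 := col_z h hr
  unfold sig
  omega

theorem sig_rq {u v w z : V} (h : Dist4 u v w z) {G H : SimpleGraph V} (hr : RP w z G H) :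
    sig u v w z G = sig u v w z H := by
  have h1 := row_u h hr
  have h2 := row_v h hr
  unfold sig
  omega

theorem sig_comm (u v w z : V) (G : SimpleGraph V) : sig w z u v G = sig u v w z G := by
  unfold sig
  rw [bl_comm G w u, bl_comm G w v, bl_comm G z u, bl_comm G z v]
  omega

theorem blockEq_comm (u v w z : V) (G H : SimpleGraph V) :
    BlockEq w z u v G H ↔ BlockEq u v w z G H := by
  unfold BlockEq
  rw [G.adj_comm w u, G.adj_comm w v, G.adj_comm z u, G.adj_comm z v,
    H.adj_comm w u, H.adj_comm w v, H.adj_comm z u, H.adj_comm z v]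
  tauto

theorem bl_le_one (G : SimpleGraph V) (a b : V) : bl G a b ≤ 1 := by
  unfold bl
  split_ifs <;> omega

theorem bl_eq_one_iff (G : SimpleGraph V) (a b : V) : bl G a b = 1 ↔ G.Adj a b := by
  unfold bl
  split_ifs with h <;> simp [h]

theorem bl_eq_zero_iff (G : SimpleGraph V) (a b : V) : bl G a b = 0 ↔ ¬ G.Adj a b := by
  unfold bl
  split_ifs with h <;> simp [h]

theorem perm_sig {u v w z : V} (G : SimpleGraph V) (hP : Perm u v w z G) :
    sig u v w z G = 2 := by
  unfold sig bl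
  rcases hP with ⟨h1, h2, h3, h4⟩ | ⟨h1, h2, h3, h4⟩ <;> simp [h1, h2, h3, h4]

end Vale.Agent.H40.KTV
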