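import Vale.Agent.H12.SwitchChain
import Vale.Agent.H90.KTV.Abs

/-!
Graph model for the switch chain on simple graphs (all degree sequences):
fibre relations of sets of vertex pairs, the switch involution of a 2 x 2 block,
and the pair projections.  All states are simple graphs on a finite vertex type;
the classes of every relation below lie inside one degree class.
-/

namespace Vale.Agent.H40.KTV

open Finset SimpleGraph
open scoped Classical
open Vale.Agent.H90 (dot avgRel)

variable {V : Type} [Fintype V]

/-- same degree at every vertex -/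
def SD (G H : SimpleGraph V) : Prop := ∀ v, G.degree v = H.degree v

/-- Fibre relation of a set `S` of vertex pairs: same degrees, and the two graphs agree
on every pair outside `S`. -/
def Rel (S : Set (Sym2 V)) (G H : SimpleGraph V) : Prop :=
  SD G H ∧ ∀ e, e ∉ S → (e ∈ G.edgeSet ↔ e ∈ H.edgeSet)

/-- the vertex pairs meeting `{u, v}` -/
def EP (u v : V) : Set (Sym2 V) := {e | u ∈ e ∨ v ∈ e}

/-- the vertex pairs meeting `{u, v, w}` -/
def ET (u v w : V) : Set (Sym2 V) := {e | u ∈ e ∨ v ∈ e ∨ w ∈ e}

/-- pair-fibre relation of the vertex pair `{u, v}`: same degrees, same graph off `u, v` -/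
def RP (u v : V) : SimpleGraph V → SimpleGraph V → Prop := Rel (EP u v)

/-- the block `{u, v} x {w, z}` of `G` is a permutation pattern -/
def Perm (u v w z : V) (G : SimpleGraph V) : Prop :=
  (G.Adj u w ∧ G.Adj v z ∧ ¬ G.Adj u z ∧ ¬ G.Adj v w) ∨
    (G.Adj u z ∧ G.Adj v w ∧ ¬ G.Adj u w ∧ ¬ G.Adj v z)

/-- Switch involution of the block `{u, v} x {w, z}`: if the block is a permutation
pattern, exchange it with the other permutation pattern; otherwise do nothing. -/
noncomputable def T (u v w z : V) (G : SimpleGraph V) : SimpleGraph V :=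
  if G.Adj u w ∧ G.Adj v z ∧ ¬ G.Adj u z ∧ ¬ G.Adj v w then Vale.Agent.H12.Switch.swap G u w z v
  else if G.Adj u z ∧ G.Adj v w ∧ ¬ G.Adj u w ∧ ¬ G.Adj v z then
    Vale.Agent.H12.Switch.swap G u z w v
  else G

/-- pair projection complement `Q_{uv} f = f - (average of f over the pair fibre)` -/
noncomputable def QP (u v : V) (f : SimpleGraph V → ℝ) : SimpleGraph V → ℝ :=
  f - avgRel (RP u v) f

/-- the part of the pair fibre of `{u, v}` on which the block `{u, v} x {w, z}` is switchable -/
def RPA (u v w z : V) (G H : SimpleGraph V) : Prop := RP u v G H ∧ T u v w z H ≠ H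

/-- the correction term of the local inequality -/
noncomputable def XT (u v w z : V) (f : SimpleGraph V → ℝ) : ℝ :=
  ∑ G : SimpleGraph V, (if T u v w z G ≠ G then
    (avgRel (RPA u v w z) f G - avgRel (RP u v) f G) ^ 2 else 0)

/-- squared increments of `f` along the switch of the block `{u, v} x {w, z}` -/
noncomputable def DT (u v w z : V) (f : SimpleGraph V → ℝ) : ℝ :=
  ∑ G : SimpleGraph V, (f G - f (T u v w z G)) ^ 2

/-- four pairwise distinct vertices -/
def Dist4 (u v w z : V) : Prop := u ≠ v ∧ u ≠ w ∧ u ≠ z ∧ v ≠ w ∧ v ≠ z ∧ w ≠ z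

end Vale.Agent.H40.KTV
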