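import Vale.Agent.H40.KTV.GBlock
import Vale.Agent.H75.KTV.PairLemma

/-!
The local inequality of the simple-graph proof (`loc`), assembled from the abstract
pair lemma and the model facts (taken here as hypotheses: refined relation is an
equivalence, frozen side, trivial intersection, centre identification, square
completion on the non-critical part).
-/

namespace Vale.Agent.H40.KTV

open Finset SimpleGraph
open scoped Classical
open Vale.Agent.H90 (dot avgRel)

variable {V : Type} [Fintype V]

theorem blockEq_adj {u v w z : V} {G H : SimpleGraph V} (hB : BlockEq u v w z G H) {a b : V}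
    (hin : InB u v w z s(a, b)) : G.Adj a b ↔ H.Adj a b := by
  obtain ⟨b1, b2, b3, b4⟩ := hB
  rcases hin with e | e | e | e
  · rw [adj_congr_sym2 G e, adj_congr_sym2 H e]; exact b1
  · rw [adj_congr_sym2 G e, adj_congr_sym2 H e]; exact b2
  · rw [adj_congr_sym2 G e, adj_congr_sym2 H e]; exact b3
  · rw [adj_congr_sym2 G e, adj_congr_sym2 H e]; exact b4

theorem blockEq_of_adj {u v w z : V} {G H : SimpleGraph V}
    (h : ∀ a b, InB u v w z s(a, b) → (G.Adj a b ↔ H.Adj a b)) : BlockEq u v w z G H :=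
  ⟨h u w (Or.inl rfl), h u z (Or.inr (Or.inl rfl)), h v w (Or.inr (Or.inr (Or.inl rfl))),
    h v z (Or.inr (Or.inr (Or.inr rfl)))⟩

/-- on the critical part the refined relation is the fibre relation of `EP u v \ EP w z` -/
theorem rel_diff_of_blockEq {u v w z : V} (h : Dist4 u v w z) {G H : SimpleGraph V}
    (hr : RP u v G H) (hB : BlockEq u v w z G H) : Rel (EP u v \ EP w z) G H := by
  apply rel_of_adj hr.1
  intro a b hab
  by_cases h1 : s(a, b) ∈ EP u v
  · have h2 : s(a, b) ∈ EP w z := by
      by_contra h2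
      exact hab ⟨h1, h2⟩
    exact blockEq_adj hB ((inB_iff_mem h a b).2 ⟨h1, h2⟩)
  · exact rel_adj hr h1

theorem blockEq_of_rel_diff {u v w z : V} (h : Dist4 u v w z) {G H : SimpleGraph V}
    (hr : Rel (EP u v \ EP w z) G H) : BlockEq u v w z G H := by
  apply blockEq_of_adj
  intro a b hin
  apply rel_adj hr
  intro hab
  exact hab.2 ((inB_iff_mem h a b).1 hin).2

theorem rp_of_rel_diff {u v w z : V} {G H : SimpleGraph V}
    (hr : Rel (EP u v \ EP w z) G H) : RP u v G H :=
  rel_mono Set.sdiff_subset hr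

section assembly

variable
  (hequiv : ∀ (u v w z : V), Dist4 u v w z → Equivalence (RPt u v w z))
  (hfrozen : ∀ (u v w z : V), Dist4 u v w z → ∀ G : SimpleGraph V, T u v w z G = G →
    (∀ H, RP u v G H → RPt u v w z G H) ∨ (∀ H, RP w z G H → RPt w z u v G H))
  (hinter : ∀ (u v w z : V), Dist4 u v w z → ∀ G H : SimpleGraph V,
    RPt u v w z G H → RP w z G H → G = H)
  (hcentre : ∀ (u v w z : V), Dist4 u v w z → ∀ (f : SimpleGraph V → ℝ) (G : SimpleGraph V),
    T u v w z G ≠ G →
      avgRel (RPt u v w z) (fun H => (f H + f (T u v w z H)) / 2) G = avgRel (RPA u v w z) f G)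
  (hsym : ∀ (u v w z : V), Dist4 u v w z → ∀ f : SimpleGraph V → ℝ,
    avgRel (RP u v) (fun H => (f H + f (T u v w z H)) / 2) = avgRel (RP u v) f)
  (hsq : ∀ (u v w z : V), Dist4 u v w z → ∀ G₁ G G₂ : SimpleGraph V, sig u v w z G ≠ 2 →
    RP u v G₁ G → RP w z G G₂ → ∃ H, RP w z G₁ H ∧ RP u v H G₂)

include hsq in
/-- square completion for the refined relation against the full pair fibre -/
theorem sq_one {u v w z : V} (h : Dist4 u v w z) {G₁ G G₂ : SimpleGraph V}
    (h1 : RPt u v w z G₁ G) (h2 : RP w z G G₂) :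
    ∃ H, RP w z G₁ H ∧ RPt u v w z H G₂ := by
  have hs1 : sig u v w z G₁ = sig u v w z G := sig_rp h h1.1
  by_cases hs : sig u v w z G = 2
  · have hd : Disjoint (EP u v \ EP w z) (EP w z) := Set.disjoint_sdiff_left
    have hr1 : Rel (EP u v \ EP w z) G₁ G := rel_diff_of_blockEq h h1.1 (h1.2 (hs1.trans hs))
    obtain ⟨p1, p2⟩ := paste_square hd hr1 h2
    exact ⟨paste (EP u v \ EP w z) G₁ G₂, p1, rp_of_rel_diff p2,
      fun _ => blockEq_of_rel_diff h p2⟩
  · obtain ⟨H, q1, q2⟩ := hsq u v w z h G₁ G G₂ hs h1.1 h2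
    refine ⟨H, q1, q2, fun hH => ?_⟩
    exfalso
    apply hs
    rw [← hs1, sig_rq h q1]
    exact hH

include hsq in
/-- square completion for the two refined relations -/
theorem sq_three {u v w z : V} (h : Dist4 u v w z) {G₁ G G₂ : SimpleGraph V}
    (h1 : RPt u v w z G₁ G) (h2 : RPt w z u v G G₂) :
    ∃ H, RPt w z u v G₁ H ∧ RPt u v w z H G₂ := by
  have h' := dist4_comm_pq h
  have hs1 : sig u v w z G₁ = sig u v w z G := sig_rp h h1.1
  by_cases hs : sig u v w z G = 2
  · have hd : Disjoint (EP u v \ EP w z) (EP w z \ EP u v) :=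
      Set.disjoint_left.2 (fun e he1 he2 => he2.2 he1.1)
    have hr1 : Rel (EP u v \ EP w z) G₁ G := rel_diff_of_blockEq h h1.1 (h1.2 (hs1.trans hs))
    have hr2 : Rel (EP w z \ EP u v) G G₂ :=
      rel_diff_of_blockEq h' h2.1 (h2.2 ((sig_comm u v w z G).trans hs))
    obtain ⟨p1, p2⟩ := paste_square hd hr1 hr2
    exact ⟨paste (EP u v \ EP w z) G₁ G₂,
      ⟨rp_of_rel_diff p1, fun _ => blockEq_of_rel_diff h' p1⟩,
      ⟨rp_of_rel_diff p2, fun _ => blockEq_of_rel_diff h p2⟩⟩
  · obtain ⟨H, q1, q2⟩ := hsq u v w z h G₁ G G₂ hs h1.1 h2.1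
    refine ⟨H, ⟨q1, fun hH => ?_⟩, ⟨q2, fun hH => ?_⟩⟩
    · exfalso
      apply hs
      rw [← hs1, ← sig_comm u v w z G₁]
      exact hH
    · exfalso
      apply hs
      rw [← hs1, sig_rq h q1]
      exact hH

include hequiv hinter hsq in
theorem comm_one {u v w z : V} (h : Dist4 u v w z) (f : SimpleGraph V → ℝ) :
    avgRel (RPt u v w z) (avgRel (RP w z) f) = avgRel (RP w z) (avgRel (RPt u v w z) f) := by
  apply Vale.Agent.H90.avgRel_comm (hequiv u v w z h) (rp_equiv w z)
  · intro x y z' hxy hyz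
    exact sq_one hsq h hxy hyz
  · intro x y h1 h2
    exact hinter u v w z h x y h1 h2

include hequiv hinter hsq in
theorem comm_three {u v w z : V} (h : Dist4 u v w z) (f : SimpleGraph V → ℝ) :
    avgRel (RPt u v w z) (avgRel (RPt w z u v) f)
      = avgRel (RPt w z u v) (avgRel (RPt u v w z) f) := by
  apply Vale.Agent.H90.avgRel_comm (hequiv u v w z h) (hequiv w z u v (dist4_comm_pq h))
  · intro x y z' hxy hyz
    exact sq_three hsq h hxy hyz
  · intro x y h1 h2
    exact hinter u v w z h x y h1 h2.1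

include hequiv hfrozen hinter hcentre hsym hsq in
/-- **Local inequality**, from the model facts. -/
theorem loc_of (u v w z : V) (h : Dist4 u v w z) (f : SimpleGraph V → ℝ) :
    (1 / 2 : ℝ) * DT u v w z f - XT u v w z f - XT w z u v f
      ≤ 2 * dot (QP u v f) (QP w z f) := by
  have h' := dist4_comm_pq h
  have hTc : T w z u v = T u v w z := T_comm_pq h
  have key := Vale.Agent.H75.pair_lemma (rp := RP u v) (rp' := RPt u v w z) (rq := RP w z)
    (rq' := RPt w z u v) (rp_equiv u v) (hequiv u v w z h) (rp_equiv w z) (hequiv w z u v h')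
    (fun x y hxy => hxy.1) (fun x y hxy => hxy.1)
    (fun f => comm_one hequiv hinter hsq h f)
    (fun f => comm_one hequiv hinter hsq h' f)
    (fun f => comm_three hequiv hinter hsq h f)
    (T u v w z) (fun x => T_invol h x) (fun x => T_rp h x) (fun x => T_rq h x)
    (fun x hx => hfrozen u v w z h x hx) f
  have e1 : 2 * (∑ x : SimpleGraph V, ((f x - f (T u v w z x)) / 2) ^ 2)
      = (1 / 2 : ℝ) * DT u v w z f := by
    unfold DT
    rw [Finset.mul_sum, Finset.mul_sum]
    refine Finset.sum_congr rfl (fun x _ => ?_)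
    ring
  have e2 : ∑ x : SimpleGraph V, (if T u v w z x ≠ x then
        (avgRel (RPt u v w z) (fun y => (f y + f (T u v w z y)) / 2) x
          - avgRel (RP u v) (fun y => (f y + f (T u v w z y)) / 2) x) ^ 2
        + (avgRel (RPt w z u v) (fun y => (f y + f (T u v w z y)) / 2) x
          - avgRel (RP w z) (fun y => (f y + f (T u v w z y)) / 2) x) ^ 2 else 0)
      = XT u v w z f + XT w z u v f := by
    unfold XT
    rw [← Finset.sum_add_distrib]
    refine Finset.sum_congr rfl (fun x _ => ?_)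
    by_cases hx : T u v w z x ≠ x
    · have hx' : T w z u v x ≠ x := by rw [hTc]; exact hx
      rw [if_pos hx, if_pos hx, if_pos hx']
      have a1 := hcentre u v w z h f x hx
      have a2 := hsym u v w z h f
      have a3 := hcentre w z u v h' f x hx'
      have a4 := hsym w z u v h' f
      rw [hTc] at a3 a4
      rw [a1, a2, a3, a4]
    · have hx' : ¬ T w z u v x ≠ x := by rw [hTc]; exact hx
      rw [if_neg hx, if_neg hx, if_neg hx']
      ring
  have e3 : ∑ x : SimpleGraph V, (f x - avgRel (RP u v) f x) * (f x - avgRel (RP w z) f x)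
      = dot (QP u v f) (QP w z f) := by
    unfold Vale.Agent.H90.dot QP
    rfl
  rw [e1, e2, e3] at key
  linarith

end assembly

end Vale.Agent.H40.KTV
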